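import Vale.Agent.P032.H800.Br.Main
import Vale.Agent.P032.H623.BrInv
import Vale.Agent.P032.H437.Wt.Main
import Vale.Agent.P032.H617.EndHD

/-!
# P032: the bridge

`bridge800` : a step which is neither killed by a crossing nor by an event of the list has neither
a swap nor a six conveyor.
-/

namespace Vale.Agent.P032.H800.Br

open Vale.Agent.P032.Six Vale.Agent.P032.H429 Vale.Agent.P032.H158 Vale.Agent.P032.H728

/-- **The bridge** for the two-sided events. -/
theorem bridge800 : H617.EndHD.Bridge H437.Ev2.evs := fun _ _ h h1 h2 =>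
  H623.bridge_of' hS800 (fun _ _ _ hq _ _ hg hg' => H437.Wt.witL hq hg hg') h h1 h2

end Vale.Agent.P032.H800.Br
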