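import Vale.Agent.P032.H623.Cols
import Vale.Agent.P032.H623.NsC

/-!
# P032: the steps from a fixed column, a search in the kernel

A colour has a list of options (a window before and a window after with the conditions which they
serve, as a number), the mask `s` of the conditions it may serve and the union `u` of the services.
`srch` goes through the letters after the step, with unit propagation.
-/

namespace Vale.Agent.P032.H800.Br

open Vale.Agent.P032.H429 Vale.Agent.P032.H158 Vale.Agent.P032.H728 Vale.Agent.P032.H623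
open Vale.Agent.P032.H532 (force force_eq)

noncomputable section

/-- a colour: options, allowed conditions, served conditions -/
structure Co where
  l : List ℕ
  s : ℕ
  u : ℕ

/-- `a` or else `b` -/
abbrev orB (a b : Bool) : Bool := Bool.rec (motive := fun _ => Bool) b true a

theorem orB_eq {a b : Bool} : orB a b = true ↔ a = true ∨ b = true := by
  cases a <;> simp [orB]

/-- the options with the bits `nd` -/
def fltK (nd : ℕ) (l acc : List ℕ) (k : List ℕ → Bool) : Bool :=
  List.rec (motive := fun _ => List ℕ → Bool) k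
    (fun o _ ih acc => Bool.rec (motive := fun _ => Bool) (ih acc) (ih (o :: acc))
      (Nat.beq (Nat.land o nd) nd)) l acc

theorem fltK_spec {nd : ℕ} {k : List ℕ → Bool} : ∀ {l acc : List ℕ}, fltK nd l acc k = true →
    ∃ l', k l' = true ∧ (∀ o ∈ acc, o ∈ l') ∧ ∀ o ∈ l, Nat.land o nd = nd → o ∈ l' := by
  intro l
  induction l with
  | nil => exact fun {acc} h => ⟨acc, h, fun o ho => ho, fun o ho => absurd ho List.not_mem_nil⟩
  | cons a l ih =>
    intro acc h
    have h1 : Bool.rec (motive := fun _ => Bool) (fltK nd l acc k) (fltK nd l (a :: acc) k)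
      (Nat.beq (Nat.land a nd) nd) = true := h
    cases hb : Nat.beq (Nat.land a nd) nd with
    | false =>
      rw [hb] at h1
      obtain ⟨l', e1, e2, e3⟩ := ih h1
      refine ⟨l', e1, e2, fun o ho hn => ?_⟩
      rcases List.mem_cons.1 ho with ho | ho
      · rw [ho] at hn
        rw [hn, Nat.beq_refl] at hb
        cases hb
      · exact e3 o ho hn
    | true =>
      rw [hb] at h1
      obtain ⟨l', e1, e2, e3⟩ := ih h1
      refine ⟨l', e1, fun o ho => e2 o (List.mem_cons_of_mem _ ho), fun o ho hn => ?_⟩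
      rcases List.mem_cons.1 ho with ho | ho
      · rw [ho]; exact e2 a List.mem_cons_self
      · exact e3 o ho hn

/-- the union of a list -/
def lorK (l : List ℕ) (acc : ℕ) (k : ℕ → Bool) : Bool :=
  List.rec (motive := fun _ => ℕ → Bool) k (fun o _ ih acc => force (Nat.lor o acc) ih) l acc

theorem tl {a b n : ℕ} (h : a.testBit n = true ∨ b.testBit n = true) :
    (Nat.lor a b).testBit n = true := by
  show (a ||| b).testBit n = true
  rw [Nat.testBit_or, Bool.or_eq_true_iff]
  exact h

theorem ta {a b n : ℕ} (h1 : a.testBit n = true) (h2 : b.testBit n = true) :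
    (Nat.land a b).testBit n = true := by
  show (a &&& b).testBit n = true
  rw [Nat.testBit_and, h1, h2]
  rfl

theorem ta_iff {a b n : ℕ} :
    (Nat.land a b).testBit n = true ↔ a.testBit n = true ∧ b.testBit n = true := by
  show (a &&& b).testBit n = true ↔ _
  rw [Nat.testBit_and, Bool.and_eq_true_iff]

theorem lorK_spec {k : ℕ → Bool} : ∀ {l : List ℕ} {acc : ℕ}, lorK l acc k = true →
    ∃ n, k n = true ∧ (∀ b, acc.testBit b = true → n.testBit b = true) ∧
      ∀ o ∈ l, ∀ b, o.testBit b = true → n.testBit b = true := by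
  intro l
  induction l with
  | nil => exact fun {acc} h => ⟨acc, h, fun b hb => hb, fun o ho => absurd ho List.not_mem_nil⟩
  | cons a l ih =>
    intro acc h
    have h1 : force (Nat.lor a acc) (fun n => lorK l n k) = true := h
    rw [force_eq] at h1
    obtain ⟨n, e1, e2, e3⟩ := ih h1
    refine ⟨n, e1, fun b hb => e2 b (tl (Or.inr hb)), fun o ho b hb => ?_⟩
    rcases List.mem_cons.1 ho with ho | ho
    · rw [ho] at hb; exact e2 b (tl (Or.inl hb))
    · exact e3 o ho b hb

/-- the true option `o` with the allowed conditions `P` is in the colour `c` -/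
structure Inv1 (o : ℕ) (P : ℕ → Prop) (c : Co) : Prop where
  mem : o ∈ c.l
  al : ∀ b, P b → c.s.testBit b = true
  sv : ∀ b, o.testBit b = true → c.s.testBit b = true → c.u.testBit b = true

/-- a colour from its options; nothing to do without options -/
def mkK (l : List ℕ) (s : ℕ) (k : Co → Bool) : Bool :=
  List.rec (motive := fun _ => Bool) true
    (fun _ _ _ => lorK l 0 fun v => force (Nat.land v s) fun u => k ⟨l, s, u⟩) l

theorem mkK_spec {l : List ℕ} {s : ℕ} {k : Co → Bool} {o : ℕ} {P : ℕ → Prop} (ho : o ∈ l)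
    (hP : ∀ b, P b → s.testBit b = true) (h : mkK l s k = true) :
    ∃ c, k c = true ∧ Inv1 o P c := by
  cases l with
  | nil => exact absurd ho List.not_mem_nil
  | cons a l =>
    have h1 : lorK (a :: l) 0 (fun v => force (Nat.land v s) fun u => k ⟨a :: l, s, u⟩) = true := h
    obtain ⟨n, e1, -, e3⟩ := lorK_spec h1
    rw [force_eq] at e1
    exact ⟨_, e1, ho, hP, fun b hb hs => ta (e3 o ho b hb) hs⟩

/-- a letter is placed -/
def plcK (B R : ℕ) (c : Co) (k : Co → Bool) : Bool :=
  fltK B c.l [] fun l' => force (Nat.land c.s R) fun s' => mkK l' s' k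

theorem plcK_spec {B R : ℕ} {c : Co} {k : Co → Bool} {o : ℕ} {P : ℕ → Prop} (hc : Inv1 o P c)
    (hB : Nat.land o B = B) (hR : ∀ b, P b → R.testBit b = true) (h : plcK B R c k = true) :
    ∃ c', k c' = true ∧ Inv1 o P c' := by
  obtain ⟨l', e1, -, e3⟩ := fltK_spec h
  rw [force_eq] at e1
  exact mkK_spec (e3 o hc.mem hB) (fun b hb => ta (hc.al b hb) (hR b hb)) e1

/-- the true options are in the colours -/
def Inv : (ℕ → ℕ) → (ℕ → ℕ → Prop) → List Co → Prop
  | _, _, [] => True
  | O, P, c :: m => Inv1 (O 0) (P 0) c ∧ Inv (fun i => O (i + 1)) (fun i => P (i + 1)) m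

/-- the colour `x` is changed -/
def updK (f : Co → (Co → Bool) → Bool) (m : List Co) (x : ℕ) (k : List Co → Bool) : Bool :=
  List.rec (motive := fun _ => ℕ → (List Co → Bool) → Bool) (fun _ k => k [])
    (fun c m ih x k => Nat.rec (motive := fun _ => Bool) (f c fun c' => k (c' :: m))
      (fun y _ => ih y fun m' => k (c :: m')) x) m x k

theorem updK_spec {f : Co → (Co → Bool) → Bool} : ∀ {m : List Co} {O : ℕ → ℕ}
    {P : ℕ → ℕ → Prop} {x : ℕ} {k : List Co → Bool}, Inv O P m →
    (∀ c k, Inv1 (O x) (P x) c → f c k = true → ∃ c', k c' = true ∧ Inv1 (O x) (P x) c') →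
    updK f m x k = true → ∃ m', k m' = true ∧ Inv O P m' ∧ m'.length = m.length := by
  intro m
  induction m with
  | nil => exact fun {O P x k} _ _ h => ⟨[], h, trivial, rfl⟩
  | cons c m ih =>
    intro O P x k hI hf h
    cases x with
    | zero =>
      have h1 : f c (fun c' => k (c' :: m)) = true := h
      obtain ⟨c', e1, e2⟩ := hf c _ hI.1 h1
      exact ⟨c' :: m, e1, ⟨e2, hI.2⟩, rfl⟩
    | succ y =>
      have h1 : updK f m y (fun m' => k (c :: m')) = true := h
      obtain ⟨m', e1, e2, e3⟩ := ih (O := fun i => O (i + 1)) (P := fun i => P (i + 1)) hI.2 hf h1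
      exact ⟨c :: m', e1, ⟨hI.1, e2⟩, by simp [e3]⟩

/-- the bits which are served at least once and at least twice -/
def scanK (m : List Co) (a1 a2 : ℕ) (k : ℕ → ℕ → Bool) : Bool :=
  List.rec (motive := fun _ => ℕ → ℕ → Bool) k
    (fun c _ ih a1 a2 => force (Nat.lor a2 (Nat.land a1 c.u)) fun a2' =>
      force (Nat.lor a1 c.u) fun a1' => ih a1' a2') m a1 a2

theorem scanK_spec {k : ℕ → ℕ → Bool} : ∀ {m : List Co} {a1 a2 : ℕ}, scanK m a1 a2 k = true →
    ∃ n1 n2, k n1 n2 = true ∧ (∀ b, a1.testBit b = true → n1.testBit b = true) ∧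
      (∀ b, a2.testBit b = true → n2.testBit b = true) ∧
      (∀ c ∈ m, ∀ b, c.u.testBit b = true → n1.testBit b = true) ∧
      (∀ c ∈ m, ∀ b, a1.testBit b = true → c.u.testBit b = true → n2.testBit b = true) ∧
      ∀ (i j : ℕ) (c d : Co), i < j → m[i]? = some c → m[j]? = some d → ∀ b,
        c.u.testBit b = true → d.u.testBit b = true → n2.testBit b = true := by
  intro m
  induction m with
  | nil =>
    intro a1 a2 h
    exact ⟨a1, a2, h, fun _ h => h, fun _ h => h, fun c hc => absurd hc List.not_mem_nil,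
      fun c hc => absurd hc List.not_mem_nil, fun i j c d _ hi => by simp at hi⟩
  | cons c m ih =>
    intro a1 a2 h
    have h1 : force (Nat.lor a2 (Nat.land a1 c.u)) (fun a2' => force (Nat.lor a1 c.u)
      fun a1' => scanK m a1' a2' k) = true := h
    rw [force_eq, force_eq] at h1
    obtain ⟨n1, n2, e0, e1, e2, e3, e4, e5⟩ := ih h1
    refine ⟨n1, n2, e0, fun b hb => e1 b (tl (Or.inl hb)), fun b hb => e2 b (tl (Or.inl hb)),
      fun d hd b hb => ?_, fun d hd b ha hb => ?_, fun i j x y hij hi hj b hx hy => ?_⟩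
    · rcases List.mem_cons.1 hd with hd | hd
      · rw [hd] at hb; exact e1 b (tl (Or.inr hb))
      · exact e3 d hd b hb
    · rcases List.mem_cons.1 hd with hd | hd
      · rw [hd] at hb; exact e2 b (tl (Or.inr (ta ha hb)))
      · exact e4 d hd b (tl (Or.inl ha)) hb
    · cases j with
      | zero => exact absurd hij (Nat.not_lt_zero _)
      | succ j =>
        rw [List.getElem?_cons_succ] at hj
        cases i with
        | zero =>
          rw [List.getElem?_cons_zero] at hi
          have hx' : c = x := Option.some.inj hi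
          rw [← hx'] at hx
          exact e4 y (List.mem_of_getElem? hj) b (tl (Or.inr hx)) hy
        | succ i =>
          rw [List.getElem?_cons_succ] at hi
          exact e5 i j x y (by omega) hi hj b hx hy

/-- the options of the only server have the bits -/
def needK (n : ℕ) (m : List Co) (k : List Co → Bool) : Bool :=
  List.rec (motive := fun _ => (List Co → Bool) → Bool) (fun k => k [])
    (fun c _ ih k => force (Nat.land n c.u) fun nd =>
      Nat.rec (motive := fun _ => Bool) (ih fun m' => k (c :: m'))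
        (fun _ _ => fltK nd c.l [] fun l' => mkK l' c.s fun c' => ih fun m' => k (c' :: m')) nd) m k

theorem land_self_of {o nd : ℕ} (h : ∀ b, nd.testBit b = true → o.testBit b = true) :
    Nat.land o nd = nd := by
  refine Nat.eq_of_testBit_eq fun b => ?_
  cases hb : nd.testBit b with
  | true => exact ta (h b hb) hb
  | false =>
    rw [← Bool.not_eq_true]
    intro h2
    rw [(ta_iff.1 h2).2] at hb
    cases hb

theorem needK_spec {n : ℕ} : ∀ {m : List Co} {O : ℕ → ℕ} {P : ℕ → ℕ → Prop}
    {k : List Co → Bool}, Inv O P m →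
    (∀ i c, m[i]? = some c → ∀ b, n.testBit b = true → c.u.testBit b = true →
      (O i).testBit b = true) → needK n m k = true →
    ∃ m', k m' = true ∧ Inv O P m' ∧ m'.length = m.length := by
  intro m
  induction m with
  | nil => exact fun {O P k} _ _ h => ⟨[], h, trivial, rfl⟩
  | cons c m ih =>
    intro O P k hI hn h
    have h1 : force (Nat.land n c.u) (fun nd =>
      Nat.rec (motive := fun _ => Bool) (needK n m fun m' => k (c :: m'))
        (fun _ _ => fltK nd c.l [] fun l' => mkK l' c.s fun c' => needK n m fun m' => k (c' :: m'))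
        nd) = true := h
    rw [force_eq] at h1
    have hn' : ∀ i d, m[i]? = some d → ∀ b, n.testBit b = true → d.u.testBit b = true →
        (O (i + 1)).testBit b = true := fun i d hd => hn (i + 1) d (by
      rw [List.getElem?_cons_succ]; exact hd)
    have h0 : ∀ b, (Nat.land n c.u).testBit b = true → (O 0).testBit b = true := fun b hb =>
      hn 0 c (by rw [List.getElem?_cons_zero]) b (ta_iff.1 hb).1 (ta_iff.1 hb).2
    generalize hnd : Nat.land n c.u = nd at h1 h0
    cases nd with
    | zero =>
      have h2 : needK n m (fun m' => k (c :: m')) = true := h1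
      obtain ⟨m', e1, e2, e3⟩ := ih (O := fun i => O (i + 1)) (P := fun i => P (i + 1)) hI.2 hn' h2
      exact ⟨c :: m', e1, ⟨hI.1, e2⟩, by simp [e3]⟩
    | succ nd =>
      have h2 : fltK (nd + 1) c.l [] (fun l' => mkK l' c.s fun c' => needK n m fun m' =>
        k (c' :: m')) = true := h1
      obtain ⟨l', e1, -, e3⟩ := fltK_spec h2
      obtain ⟨c', g1, g2⟩ := mkK_spec (P := P 0) (e3 (O 0) hI.1.mem (land_self_of h0)) hI.1.al e1
      obtain ⟨m', f1, f2, f3⟩ := ih (O := fun i => O (i + 1)) (P := fun i => P (i + 1)) hI.2 hn' g1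
      exact ⟨c' :: m', f1, ⟨g2, f2⟩, by simp [f3]⟩

/-- the 72 conditions -/
def FU : ℕ := 0xffffffffffffffffff

/-- propagation -/
def propK (m : List Co) (k : List Co → Bool) : Bool :=
  scanK m 0 0 fun a1 a2 => force (Nat.land a1 FU) fun t =>
    Bool.rec (motive := fun _ => Bool) true
      (force (Nat.xor t (Nat.land t a2)) fun n => needK n m k) (Nat.beq t FU)

/-- every condition is served by a colour which is allowed to serve it -/
def Srv (O : ℕ → ℕ) (P : ℕ → ℕ → Prop) : Prop :=
  ∀ b < 72, ∃ i < 6, (O i).testBit b = true ∧ P i b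

theorem Inv.get : ∀ {m : List Co} {O : ℕ → ℕ} {P : ℕ → ℕ → Prop}, Inv O P m →
    ∀ i < m.length, ∃ c, m[i]? = some c ∧ Inv1 (O i) (P i) c := by
  intro m
  induction m with
  | nil => exact fun _ i hi => absurd hi (Nat.not_lt_zero _)
  | cons c m ih =>
    intro O P hI i hi
    cases i with
    | zero => exact ⟨c, by rw [List.getElem?_cons_zero], hI.1⟩
    | succ i =>
      obtain ⟨d, h1, h2⟩ := ih hI.2 i (by simpa using hi)
      exact ⟨d, by rw [List.getElem?_cons_succ]; exact h1, h2⟩

theorem FU_eq : FU = 2 ^ 72 - 1 := by decide +kernel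

theorem FU_bit {b : ℕ} : FU.testBit b = true ↔ b < 72 := by
  rw [FU_eq, Nat.testBit_two_pow_sub_one, decide_eq_true_iff]

theorem propK_spec {m : List Co} {O : ℕ → ℕ} {P : ℕ → ℕ → Prop} {k : List Co → Bool}
    (hI : Inv O P m) (hl : m.length = 6) (hS : Srv O P) (h : propK m k = true) :
    ∃ m', k m' = true ∧ Inv O P m' ∧ m'.length = 6 := by
  obtain ⟨n1, n2, e0, -, -, e3, -, e5⟩ := scanK_spec h
  rw [force_eq] at e0
  have srv : ∀ b < 72, ∃ i < 6, ∃ c, m[i]? = some c ∧ c.u.testBit b = true ∧
      (O i).testBit b = true := by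
    intro b hb
    obtain ⟨i, hi, h1, h2⟩ := hS b hb
    obtain ⟨c, h3, h4⟩ := hI.get i (by rw [hl]; exact hi)
    exact ⟨i, hi, c, h3, h4.sv b h1 (h4.al b h2), h1⟩
  have ht : Nat.land n1 FU = FU := by
    refine land_self_of fun b hb => ?_
    obtain ⟨i, -, c, h3, h4, -⟩ := srv b (FU_bit.1 hb)
    exact e3 c (List.mem_of_getElem? h3) b h4
  rw [ht, Nat.beq_refl] at e0
  have e1 : force (Nat.xor FU (Nat.land FU n2)) (fun n => needK n m k) = true := e0
  rw [force_eq] at e1
  have hneed : ∀ (i : ℕ) (c : Co), m[i]? = some c → ∀ b,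
      (Nat.xor FU (Nat.land FU n2)).testBit b = true → c.u.testBit b = true →
      (O i).testBit b = true := by
    intro i c hc b hb hu
    have hb' : (FU ^^^ (FU &&& n2)).testBit b = true := hb
    rw [Nat.testBit_xor, Nat.testBit_and] at hb'
    have hF : FU.testBit b = true := by
      cases hF : FU.testBit b with
      | true => rfl
      | false => rw [hF] at hb'; simp at hb'
    have hn2 : n2.testBit b = false := by
      cases hn : n2.testBit b with
      | false => rfl
      | true => rw [hF, hn] at hb'; simp at hb'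
    obtain ⟨j, -, d, h3, h4, h5⟩ := srv b (FU_bit.1 hF)
    rcases lt_trichotomy i j with hij | hij | hij
    · rw [e5 i j c d hij hc h3 b hu h4] at hn2
      cases hn2
    · rw [hij]; exact h5
    · rw [e5 j i d c hij h3 hc b h4 hu] at hn2
      cases hn2
  obtain ⟨m', f1, f2, f3⟩ := needK_spec hI hneed e1
  exact ⟨m', f1, f2, by rw [f3, hl]⟩

/-- the search -/
def srch (leaf : List ℕ → List Co → Bool) (rows : List (ℕ × ℕ × ℕ)) (rev : List ℕ)
    (m : List Co) : Bool :=
  List.rec (motive := fun _ => List ℕ → List Co → Bool) leaf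
    (fun r _ ih rev m => all6 fun x => orB (bad r.1 rev x)
      (updK (plcK r.2.1 r.2.2) m x fun m' => propK m' fun m'' => ih (x :: rev) m'')) rows rev m

/-- the true letters `f` pass the rows -/
def Good (f : ℕ → ℕ) (O : ℕ → ℕ) (P : ℕ → ℕ → Prop) : List (ℕ × ℕ × ℕ) → List ℕ → List ℕ → Prop
  | [], rev, fin => rev = fin
  | r :: rows, rev, fin => bad r.1 rev (f r.1) = false ∧ f r.1 < 6 ∧
      Nat.land (O (f r.1)) r.2.1 = r.2.1 ∧ (∀ b, P (f r.1) b → r.2.2.testBit b = true) ∧
      Good f O P rows (f r.1 :: rev) fin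

theorem srch_spec {leaf : List ℕ → List Co → Bool} {f : ℕ → ℕ} {O : ℕ → ℕ}
    {P : ℕ → ℕ → Prop} (hS : Srv O P) {fin : List ℕ} : ∀ {rows : List (ℕ × ℕ × ℕ)}
    {rev : List ℕ} {m : List Co}, Good f O P rows rev fin → Inv O P m → m.length = 6 →
    srch leaf rows rev m = true → ∃ m', leaf fin m' = true ∧ Inv O P m' ∧ m'.length = 6 := by
  intro rows
  induction rows with
  | nil =>
    intro rev m hG hI hl h
    have hG' : rev = fin := hG
    rw [← hG']
    exact ⟨m, h, hI, hl⟩
  | cons r rows ih =>
    intro rev m hG hI hl h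
    obtain ⟨g1, g2, g3, g4, g5⟩ := hG
    have h1 : all6 (fun x => orB (bad r.1 rev x) (updK (plcK r.2.1 r.2.2) m x fun m' =>
      propK m' fun m'' => srch leaf rows (x :: rev) m'')) = true := h
    have h2 := all6_spec h1 ⟨f r.1, g2⟩
    simp only at h2
    rw [orB_eq] at h2
    rcases h2 with h2 | h2
    · rw [g1] at h2; cases h2
    · obtain ⟨m1, e1, e2, e3⟩ := updK_spec hI (fun c k hc hk => plcK_spec hc g3 g4 hk) h2
      obtain ⟨m2, f1, f2, f3⟩ := propK_spec e2 (by rw [e3, hl]) hS e1
      exact ih g5 f2 f3 f1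

/-- the letters before the step -/
def iniK (L : List (ℕ × ℕ × ℕ)) (m : List Co) (k : List Co → Bool) : Bool :=
  List.rec (motive := fun _ => List Co → Bool) k
    (fun r _ ih m => updK (plcK r.2.1 r.2.2) m r.1 ih) L m

theorem iniK_spec {O : ℕ → ℕ} {P : ℕ → ℕ → Prop} {k : List Co → Bool} :
    ∀ {L : List (ℕ × ℕ × ℕ)} {m : List Co}, (∀ r ∈ L, Nat.land (O r.1) r.2.1 = r.2.1 ∧
      ∀ b, P r.1 b → r.2.2.testBit b = true) → Inv O P m → m.length = 6 →
    iniK L m k = true → ∃ m', k m' = true ∧ Inv O P m' ∧ m'.length = 6 := by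
  intro L
  induction L with
  | nil => exact fun {m} _ hI hl h => ⟨m, h, hI, hl⟩
  | cons r L ih =>
    intro m hL hI hl h
    have h1 : updK (plcK r.2.1 r.2.2) m r.1 (fun m => iniK L m k) = true := h
    obtain ⟨g1, g2⟩ := hL r List.mem_cons_self
    obtain ⟨m1, e1, e2, e3⟩ := updK_spec hI (fun c k hc hk => plcK_spec hc g1 g2 hk) h1
    exact ih (fun r hr => hL r (List.mem_cons_of_mem _ hr)) e2 (by rw [e3, hl]) e1

/-- all members of a list -/
def allL (l : List ℕ) (p : ℕ → Bool) : Bool :=
  List.rec (motive := fun _ => Bool) true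
    (fun o _ ih => Bool.rec (motive := fun _ => Bool) false ih (p o)) l

theorem allL_spec {l : List ℕ} {p : ℕ → Bool} (h : allL l p = true) : ∀ o ∈ l, p o = true := by
  induction l with
  | nil => exact fun o ho => absurd ho List.not_mem_nil
  | cons a l ih =>
    have h1 : Bool.rec (motive := fun _ => Bool) false (allL l p) (p a) = true := h
    cases hb : p a with
    | false => rw [hb] at h1; cases h1
    | true =>
      rw [hb] at h1
      intro o ho
      rcases List.mem_cons.1 ho with ho | ho
      · rw [ho]; exact hb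
      · exact ih h1 o ho

/-- the options of the colours `idx` one by one: nothing is left -/
def spl (idx : List ℕ) (m : List Co) : Bool :=
  List.rec (motive := fun _ => List Co → Bool) (fun _ => false)
    (fun i _ ih m => allL ((m.getD i ⟨[], 0, 0⟩).l) fun o =>
      updK (fun c k => mkK [o] c.s k) m i fun m' => propK m' ih) idx m

theorem spl_spec {O : ℕ → ℕ} {P : ℕ → ℕ → Prop} (hS : Srv O P) :
    ∀ {idx : List ℕ} {m : List Co}, (∀ i ∈ idx, i < 6) → Inv O P m → m.length = 6 →
      spl idx m = true → False := by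
  intro idx
  induction idx with
  | nil => intro m _ _ _ h; cases h
  | cons i idx ih =>
    intro m hidx hI hl h
    have h1 : allL ((m.getD i ⟨[], 0, 0⟩).l) (fun o =>
      updK (fun c k => mkK [o] c.s k) m i fun m' => propK m' (spl idx)) = true := h
    obtain ⟨c, hc, hc2⟩ := hI.get i (by rw [hl]; exact hidx i List.mem_cons_self)
    have e : m.getD i ⟨[], 0, 0⟩ = c := by
      rw [List.getD_eq_getElem?_getD, hc]; rfl
    rw [e] at h1
    have h2 := allL_spec h1 (O i) hc2.mem
    obtain ⟨m1, e1, e2, e3⟩ := updK_spec hI (fun c k hc hk =>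
      mkK_spec (o := O i) List.mem_cons_self hc.al hk) h2
    obtain ⟨m2, f1, f2, f3⟩ := propK_spec e2 (by rw [e3, hl]) hS e1
    exact ih (fun i hi => hidx i (List.mem_cons_of_mem _ hi)) f2 f3 f1

/-- membership -/
def memB (w : ℕ) (l : List ℕ) : Bool :=
  List.rec (motive := fun _ => Bool) false
    (fun o _ ih => Bool.rec (motive := fun _ => Bool) ih true (Nat.beq o w)) l

theorem memB_spec {w : ℕ} {l : List ℕ} (h : memB w l = true) : w ∈ l := by
  induction l with
  | nil => cases h
  | cons a l ih =>
    have h1 : Bool.rec (motive := fun _ => Bool) (memB w l) true (Nat.beq a w) = true := h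
    cases hb : Nat.beq a w with
    | true => rw [Nat.eq_of_beq_eq_true hb]; exact List.mem_cons_self
    | false => rw [hb] at h1; exact List.mem_cons_of_mem _ (ih h1)

end

end Vale.Agent.P032.H800.Br
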