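import Vale.Agent.P032.H800.Br.Kit
import Vale.Agent.P032.H728.Static

/-!
# P032: the steps from a fixed column, soundness of the search
-/

namespace Vale.Agent.P032.H800.Br

open Vale.Agent.P032.H429 Vale.Agent.P032.H158 Vale.Agent.P032.H728 Vale.Agent.P032.H623
open Vale.Agent.P032.H532 (force force_eq)

noncomputable section

/-- data -/
def optL : List ℕ := [
  0xa56a5638e3b1c713b13b1000, 0xa56a1438e3b1c711b03b1040, 0xa56a953cf3f9e791f83b1000, 0x0,
  0x85285230c321861321321082, 0x85281030c3218611203210c2, 0x852a1438e3b1c711b0321042,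
  0x852a5638e3b1c713b1321002, 0x42042208201041201201186, 0x420002082010410002011c6,
  0x4281030c3218611202010c6, 0x4285230c321861321201086, 0x38e, 0x0, 0x2082010410000001ce,
  0x4220820104120100018e, 0x95a95a71c7238e3723723000, 0x95a85271c7238e3321723080,
  0x95aa5679e7b3cf33b1723000, 0x0, 0x14a14a6186030c3603603104, 0x14a0426186030c3201603184,
  0x14a85271c7238e3321603084, 0x14a95a71c7238e3723603004, 0x10810841040208240240230c,
  0x10800041040208200040238c, 0x1080426186030c320140218c, 0x10814a6186030c360340210c, 0x71c, 0x0,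
  0x41040208200000039c, 0x10841040208240200031c, 0x56a56ae38e071c7e07e07000,
  0x56a14ae38e071c7603e07100, 0x56a95af3cf279e7723e07000, 0x0, 0x528528c30c06186c06c06208,
  0x528108c30c06186402c06308, 0x52814ae38e071c7603c06108, 0x52856ae38e071c7e07c06008,
  0x420420820804104804804618, 0x420000820804104000804718, 0x420108c30c06186402804318,
  0x420528c30c06186c06804218, 0xe38, 0x0, 0x820804104000000738, 0x420820804104804000638,
  0x5a95a9c71c4e38ec4ec4e000, 0x5a9528c71c4e38ec06c4e200, 0x5a956ae79e4f3cfe07c4e000, 0x0,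
  0x4a14a186184c30c84c84c410, 0x4a142086184c30c80484c610, 0x4a1528c71c4e38ec0684c210,
  0x4a15a9c71c4e38ec4e84c010, 0x81081041048208048048c30, 0x81000041048208000048e30,
  0x8142086184c30c804048630, 0x814a186184c30c84c048430, 0xc71, 0x0, 0x41048208000000e31,
  0x81041048208048000c31, 0x6a56a58e38dc71c8dc8dc000, 0x6a54a18e38dc71c84c8dc400,
  0x6a55a9cf3cde79ec4e8dc000, 0x0, 0x2852850c30d86180d80d8820, 0x2850810c30d86180480d8c20,
  0x2854a18e38dc71c84c0d8420, 0x2856a58e38dc71c8dc0d8020, 0x204204082090410090090861,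
  0x204000082090410000090c61, 0x2040810c30d8618048090c21, 0x2042850c30d86180d8090821, 0x8e3, 0x0,
  0x82090410000000c63, 0x204082090410090000863, 0xa95a951c71f8e381f81f8000,
  0xa952851c71f8e380d81f8800, 0xa956a59e79fcf3c8dc1f8000, 0x0, 0xa14a141861b0c301b01b0041,
  0xa142041861b0c300901b0841, 0xa142851c71f8e380d81b0801, 0xa14a951c71f8e381f81b0001,
  0x8108101041208201201200c3, 0x8100001041208200001208c3, 0x8102041861b0c30090120843,
  0x810a141861b0c301b0120043, 0x1c7, 0x0, 0x1041208200000008c7, 0x8101041208201200000c7]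

/-- data -/
def R1L : List ℕ := [
  0xffd77f7ddfff75dfff, 0xffd77f7ddfff75dfff, 0xffbebffbafffebafff, 0xffbebffbafffebafff,
  0xff7d7ff75fffd75fff, 0xff7d7ff75fffd75fff, 0xfefaffeebfffaebfff, 0xfefaffeebfffaebfff,
  0xfdf5ffdd7fff5d7fff, 0xfdf5ffdd7fff5d7fff, 0xffebbfbeefffbaefff, 0xffebbfbeefffbaefff]

/-- data -/
def R2L : List ℕ := [
  0x75ffddf7f75dffffff, 0x75ffddf7f75dffffff, 0xebeffaeffebaffffff, 0xebeffaeffebaffffff,
  0xd7dff5dffd75ffffff, 0xd7dff5dffd75ffffff, 0xafbfebbffaebffffff, 0xafbfebbffaebffffff,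
  0x5f7fd77ff5d7ffffff, 0x5f7fd77ff5d7ffffff, 0xbaffeefbfbaeffffff, 0xbaffeefbfbaeffffff]

/-- data -/
def rowG : List (ℕ × ℕ × ℕ) := [
  (0, 0x1000000000000000000000, 0xffd77f7ddfff75dfff),
  (1, 0x2000000000000000000000, 0xffd77f7ddfff75dfff),
  (2, 0x4000000000000000000000, 0xffbebffbafffebafff),
  (3, 0x8000000000000000000000, 0xffbebffbafffebafff),
  (4, 0x10000000000000000000000, 0xff7d7ff75fffd75fff),
  (5, 0x20000000000000000000000, 0xff7d7ff75fffd75fff),
  (6, 0x40000000000000000000000, 0xfefaffeebfffaebfff),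
  (7, 0x80000000000000000000000, 0xfefaffeebfffaebfff),
  (8, 0x100000000000000000000000, 0xfdf5ffdd7fff5d7fff),
  (9, 0x200000000000000000000000, 0xfdf5ffdd7fff5d7fff),
  (10, 0x400000000000000000000000, 0xffebbfbeefffbaefff),
  (11, 0x800000000000000000000000, 0xffebbfbeefffbaefff)]

/-- data -/
def rowH : List (ℕ × ℕ × ℕ) := [
  (0, 0x1000000000000000000, 0x75ffddf7f75dffffff),
  (1, 0x2000000000000000000, 0x75ffddf7f75dffffff),
  (2, 0x4000000000000000000, 0xebeffaeffebaffffff),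
  (3, 0x8000000000000000000, 0xebeffaeffebaffffff),
  (4, 0x10000000000000000000, 0xd7dff5dffd75ffffff),
  (5, 0x20000000000000000000, 0xd7dff5dffd75ffffff),
  (6, 0x40000000000000000000, 0xafbfebbffaebffffff),
  (7, 0x80000000000000000000, 0xafbfebbffaebffffff),
  (8, 0x100000000000000000000, 0x5f7fd77ff5d7ffffff),
  (9, 0x200000000000000000000, 0x5f7fd77ff5d7ffffff),
  (10, 0x400000000000000000000, 0xbaffeefbfbaeffffff),
  (11, 0x800000000000000000000, 0xbaffeefbfbaeffffff)]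

/-- the four steps of a window -/
def stp (w : ZMod 6 × ℕ) (k : Fin 4) : ZMod 6 × ℕ :=
  if k = 0 then w else if k = 1 then (w.1 - 1, w.2 + 1) else if k = 2 then (w.1 - 1, w.2)
  else (w.1, w.2 - 1)

/-- the step is possible -/
def vl (w : ZMod 6 × ℕ) (k : Fin 4) : Prop := (k = 1 → w.2 ≤ 2) ∧ (k = 3 → 1 ≤ w.2)

instance (w : ZMod 6 × ℕ) (k : Fin 4) : Decidable (vl w k) := by unfold vl; infer_instance

/-- the option of a step -/
def OP (w : ZMod 6 × ℕ) (k : Fin 4) : ℕ := optL.getD (16 * w.1.val + (4 * w.2 + k.val)) 0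

theorem stp_of {w w' : ZMod 6 × ℕ} (h : WStep w w') (h' : w'.2 ≤ 3) :
    ∃ k, w' = stp w k ∧ vl w k := by
  rcases h with h | h | h | ⟨h1, h⟩
  · exact ⟨0, h, fun e => absurd e (by decide), fun e => absurd e (by decide)⟩
  · refine ⟨1, h, fun _ => ?_, fun e => absurd e (by decide)⟩
    rw [h] at h'
    simp only at h'
    omega
  · exact ⟨2, h, fun e => absurd e (by decide), fun e => absurd e (by decide)⟩
  · exact ⟨3, h, fun e => absurd e (by decide), fun _ => h1⟩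

theorem OP_mem {w : ZMod 6 × ℕ} (h : w.2 ≤ 3) (k : Fin 4) : OP w k ∈ optL := by
  have hw := ZMod.val_lt w.1
  have hk := k.isLt
  have hl : optL.length = 96 := by decide +kernel
  have hi : 16 * w.1.val + (4 * w.2 + k.val) < optL.length := by rw [hl]; omega
  unfold OP
  rw [List.getD_eq_getElem _ _ hi]
  exact List.getElem_mem hi

theorem k_inn : ∀ (a : ZMod 6) (n k : Fin 4) (j : Fin 6), vl (a, n.val) k →
    inn (a, n.val) (j.val : ZMod 6) → (OP (a, n.val) k).testBit (84 + 2 * j.val) = true := by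
  decide +kernel

theorem k_out : ∀ (a : ZMod 6) (n k : Fin 4) (j : Fin 6), vl (a, n.val) k →
    out (a, n.val) (j.val : ZMod 6) → (OP (a, n.val) k).testBit (84 + (2 * j.val + 1)) = true := by
  decide +kernel

theorem k_inn' : ∀ (a : ZMod 6) (n k : Fin 4) (j : Fin 6), vl (a, n.val) k →
    inn (stp (a, n.val) k) (j.val : ZMod 6) →
    (OP (a, n.val) k).testBit (72 + 2 * j.val) = true := by
  decide +kernel

theorem k_out' : ∀ (a : ZMod 6) (n k : Fin 4) (j : Fin 6), vl (a, n.val) k →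
    out (stp (a, n.val) k) (j.val : ZMod 6) →
    (OP (a, n.val) k).testBit (72 + (2 * j.val + 1)) = true := by
  decide +kernel

theorem k_cov : ∀ (a : ZMod 6) (n k : Fin 4) (j : Fin 6), vl (a, n.val) k →
    ((j.val : ZMod 6) - 1 - a).val < n.val →
    (OP (a, n.val) k).testBit (0 + j.val) = true := by
  decide +kernel

theorem k_cov' : ∀ (a : ZMod 6) (n k : Fin 4) (j : Fin 6), vl (a, n.val) k →
    ((j.val : ZMod 6) - 1 - (stp (a, n.val) k).1).val < (stp (a, n.val) k).2 →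
    (OP (a, n.val) k).testBit (6 + j.val) = true := by
  decide +kernel

theorem k_o0 : ∀ (a : ZMod 6) (n k : Fin 4) (j : Fin 6), vl (a, n.val) k →
    outc (a, n.val) (a, n.val) (j.val : ZMod 6) →
    (OP (a, n.val) k).testBit (12 + j.val) = true := by
  decide +kernel

theorem k_i0 : ∀ (a : ZMod 6) (n k : Fin 4) (j : Fin 6), vl (a, n.val) k →
    innc (a, n.val) (a, n.val) (j.val : ZMod 6) →
    (OP (a, n.val) k).testBit (18 + j.val) = true := by
  decide +kernel

theorem k_o1 : ∀ (a : ZMod 6) (n k : Fin 4) (j : Fin 6), vl (a, n.val) k →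
    outc (stp (a, n.val) k) (stp (a, n.val) k) (j.val : ZMod 6) →
    (OP (a, n.val) k).testBit (24 + j.val) = true := by
  decide +kernel

theorem k_i1 : ∀ (a : ZMod 6) (n k : Fin 4) (j : Fin 6), vl (a, n.val) k →
    innc (stp (a, n.val) k) (stp (a, n.val) k) (j.val : ZMod 6) →
    (OP (a, n.val) k).testBit (30 + j.val) = true := by
  decide +kernel

theorem k_o : ∀ (a : ZMod 6) (n k : Fin 4) (j : Fin 6), vl (a, n.val) k →
    outc (a, n.val) (stp (a, n.val) k) (j.val : ZMod 6) →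
    (OP (a, n.val) k).testBit (36 + j.val) = true ∧
    (OP (a, n.val) k).testBit (42 + j.val) = true ∧
    (OP (a, n.val) k).testBit (48 + j.val) = true := by
  decide +kernel

theorem k_i : ∀ (a : ZMod 6) (n k : Fin 4) (j : Fin 6), vl (a, n.val) k →
    innc (a, n.val) (stp (a, n.val) k) (j.val : ZMod 6) →
    (OP (a, n.val) k).testBit (54 + j.val) = true ∧
    (OP (a, n.val) k).testBit (60 + j.val) = true ∧
    (OP (a, n.val) k).testBit (66 + j.val) = true := by
  decide +kernel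

/-- the conditions allowed by a letter before (after) the step at the place `q` -/
def R1 (q : ℕ) : ℕ := R1L.getD q 0
def R2 (q : ℕ) : ℕ := R2L.getD q 0

/-- the conditions of the type `t` use the next or the previous letter before or after -/
def nG (t : ℕ) : Bool := [2, 3, 6, 7, 9].contains t
def pG (t : ℕ) : Bool := [2, 3, 6, 9, 10].contains t
def nH (t : ℕ) : Bool := [4, 5, 8, 10, 11].contains t
def pH (t : ℕ) : Bool := [4, 5, 7, 8, 11].contains t

theorem R1_bit : ∀ (t : Fin 12) (j : Fin 6) (q : Fin 12),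
    (nG t.val = true → (j + 1).val ≠ q.val / 2) → (pG t.val = true → (j - 1).val ≠ q.val / 2) →
    (R1 q.val).testBit (6 * t.val + j.val) = true := by
  decide +kernel

theorem R2_bit : ∀ (t : Fin 12) (j : Fin 6) (q : Fin 12),
    (nH t.val = true → (j + 1).val ≠ q.val / 2) → (pH t.val = true → (j - 1).val ≠ q.val / 2) →
    (R2 q.val).testBit (6 * t.val + j.val) = true := by
  decide +kernel

/-- a row -/
def mkG (q : ℕ) : ℕ × ℕ × ℕ := (q, 2 ^ (84 + q), R1 q)
def mkH (q : ℕ) : ℕ × ℕ × ℕ := (q, 2 ^ (72 + q), R2 q)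

theorem rowG_eq : rowG = [mkG 0, mkG 1, mkG 2, mkG 3, mkG 4, mkG 5, mkG 6, mkG 7, mkG 8, mkG 9,
    mkG 10, mkG 11] := by decide +kernel

theorem rowH_eq : rowH = [mkH 0, mkH 1, mkH 2, mkH 3, mkH 4, mkH 5, mkH 6, mkH 7, mkH 8, mkH 9,
    mkH 10, mkH 11] := by decide +kernel

theorem land_pow {o n : ℕ} (h : o.testBit n = true) : Nat.land o (2 ^ n) = 2 ^ n := by
  refine land_self_of fun b hb => ?_
  rw [Nat.testBit_two_pow, decide_eq_true_iff] at hb
  rw [← hb]
  exact h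

/-- the conditions which the colour `i` may serve -/
def PP (s s' : St) (i b : ℕ) : Prop :=
  b < 72 ∧ (∀ q < 12, ltr s.1 q = i → (R1 q).testBit b = true) ∧
    ∀ q < 12, ltr s'.1 q = i → (R2 q).testBit b = true

/-- a place is the inner or the outer place of a slot -/
theorem ltr_even (g : Cl) (j : Fin 6) : ltr g (2 * j.val) = (g j).1.val := ls_even g j
theorem ltr_odd (g : Cl) (j : Fin 6) : ltr g (2 * j.val + 1) = (g j).2.val := ls_odd g j

/-- a letter of another slot -/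
theorem ne_slot {g : Cl} {i k : Fin 6} (h1 : i ≠ (g k).1) (h2 : i ≠ (g k).2) {q : ℕ} (hq : q < 12)
    (hi : ltr g q = i.val) : k.val ≠ q / 2 := by
  intro e
  obtain ⟨j, hj⟩ := place hq
  have ej : k = j := Fin.ext (by omega)
  rcases hj with hj | hj
  · rw [hj, ltr_even, ← ej] at hi
    exact h1 (Fin.ext hi.symm)
  · rw [hj, ltr_odd, ← ej] at hi
    exact h2 (Fin.ext hi.symm)

/-- a line of the conditions is allowed for a colour off its letters -/
theorem PP_of {s s' : St} (t : Fin 12) (j i : Fin 6)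
    (h1 : nG t.val = true → i ≠ (s.1 (j + 1)).1 ∧ i ≠ (s.1 (j + 1)).2)
    (h2 : pG t.val = true → i ≠ (s.1 (j - 1)).1 ∧ i ≠ (s.1 (j - 1)).2)
    (h3 : nH t.val = true → i ≠ (s'.1 (j + 1)).1 ∧ i ≠ (s'.1 (j + 1)).2)
    (h4 : pH t.val = true → i ≠ (s'.1 (j - 1)).1 ∧ i ≠ (s'.1 (j - 1)).2) :
    PP s s' i.val (6 * t.val + j.val) := by
  have ht := t.isLt
  have hj := j.isLt
  refine ⟨by omega, fun q hq hi => ?_, fun q hq hi => ?_⟩
  · exact R1_bit t j ⟨q, hq⟩ (fun e => ne_slot (h1 e).1 (h1 e).2 hq hi)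
      fun e => ne_slot (h2 e).1 (h2 e).2 hq hi
  · exact R2_bit t j ⟨q, hq⟩ (fun e => ne_slot (h3 e).1 (h3 e).2 hq hi)
      fun e => ne_slot (h4 e).1 (h4 e).2 hq hi

/-- the steps of the windows by their numbers -/
theorem exists_kap {s s' : St} (hw : ∀ i, WStep (s.2 i) (s'.2 i)) (h' : ∀ i, (s'.2 i).2 ≤ 3) :
    ∃ κ : Fin 6 → Fin 4, ∀ i, s'.2 i = stp (s.2 i) (κ i) ∧ vl (s.2 i) (κ i) :=
  ⟨fun i => (stp_of (hw i) (h' i)).choose, fun i => (stp_of (hw i) (h' i)).choose_spec⟩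

/-- the true options -/
def OO (s : St) (κ : Fin 6 → Fin 4) (i : ℕ) : ℕ :=
  if h : i < 6 then OP (s.2 ⟨i, h⟩) (κ ⟨i, h⟩) else 0

theorem OO_val (s : St) (κ : Fin 6 → Fin 4) (i : Fin 6) : OO s κ i.val = OP (s.2 i) (κ i) := by
  unfold OO
  rw [dif_pos i.isLt]

section

variable {s s' : St} {κ : Fin 6 → Fin 4}

/-- the hypotheses -/
structure Stp (s s' : St) (κ : Fin 6 → Fin 4) : Prop where
  ok : OkSt s
  ok' : OkSt s'
  cov : Cov s.2
  cov' : Cov s'.2
  x0 : XCRel All s s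
  x1 : XCRel All s' s'
  x : XCRel All s s'
  st : ∀ i, s'.2 i = stp (s.2 i) (κ i)
  vl : ∀ i, vl (s.2 i) (κ i)

theorem Stp.n3 (H : Stp s s' κ) (i : Fin 6) : ∃ n : Fin 4, s.2 i = ((s.2 i).1, n.val) :=
  ⟨⟨(s.2 i).2, Nat.lt_succ_of_le (H.ok.1 i)⟩, rfl⟩

theorem Stp.srv (H : Stp s s' κ) : Srv (OO s κ) (PP s s') := by
  intro b hb
  obtain ⟨t, j, rfl⟩ : ∃ (t : Fin 12) (j : Fin 6), b = 6 * t.val + j.val :=
    ⟨⟨b / 6, by omega⟩, ⟨b % 6, by omega⟩, by show b = 6 * (b / 6) + b % 6; omega⟩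
  have fin : ∀ i : Fin 6, (OP (s.2 i) (κ i)).testBit (6 * t.val + j.val) = true →
      PP s s' i.val (6 * t.val + j.val) → ∃ i < 6, (OO s κ i).testBit (6 * t.val + j.val) = true ∧
        PP s s' i (6 * t.val + j.val) := fun i h1 h2 =>
    ⟨i.val, i.isLt, by rw [OO_val]; exact h1, h2⟩
  have kk : ∀ (Q : ZMod 6 × ℕ → ZMod 6 × ℕ → Prop) (B : ℕ),
      (∀ (a : ZMod 6) (n k : Fin 4), H800.Br.vl (a, n.val) k → Q (a, n.val) (stp (a, n.val) k) →
        (OP (a, n.val) k).testBit B = true) → ∀ i : Fin 6, Q (s.2 i) (s'.2 i) →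
      (OP (s.2 i) (κ i)).testBit B = true := by
    intro Q B hQ i hi
    obtain ⟨n, hn⟩ := H.n3 i
    have hv := H.vl i
    rw [H.st i] at hi
    rw [hn] at hi hv ⊢
    exact hQ _ n _ hv hi
  obtain ⟨⟨⟨i1, a1, b1⟩, -, -⟩, ⟨i2, a2, b2⟩, -, -⟩ := H.x0 j
  obtain ⟨⟨⟨i3, a3, b3⟩, -, -⟩, ⟨i4, a4, b4⟩, -, -⟩ := H.x1 j
  obtain ⟨⟨⟨i6, a6, b6⟩, ⟨i7, a7, b7⟩, ⟨i8, a8, b8⟩⟩, ⟨i9, a9, b9⟩, ⟨i10, a10, b10⟩,
    ⟨i11, a11, b11⟩⟩ := H.x j
  fin_cases t
  · obtain ⟨i, hi⟩ := H.cov (j.val : ZMod 6)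
    exact fin i (kk (fun w _ => ((j.val : ZMod 6) - 1 - w.1).val < w.2) _
      (fun a n k hv hq => k_cov a n k j hv hq) i hi)
      (PP_of 0 j i (fun e => absurd e (by decide)) (fun e => absurd e (by decide))
        (fun e => absurd e (by decide)) fun e => absurd e (by decide))
  · obtain ⟨i, hi⟩ := H.cov' (j.val : ZMod 6)
    exact fin i (kk (fun _ w => ((j.val : ZMod 6) - 1 - w.1).val < w.2) _
      (fun a n k hv hq => k_cov' a n k j hv hq) i hi)
      (PP_of 1 j i (fun e => absurd e (by decide)) (fun e => absurd e (by decide))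
        (fun e => absurd e (by decide)) fun e => absurd e (by decide))
  · exact fin i1 (kk (fun w _ => outc w w (j.val : ZMod 6)) _
      (fun a n k hv hq => k_o0 a n k j hv hq) i1 (b1 trivial))
      (PP_of 2 j i1 (fun _ => ⟨a1.1, a1.2.1⟩) (fun _ => ⟨a1.2.2.1, a1.2.2.2⟩)
        (fun e => absurd e (by decide)) fun e => absurd e (by decide))
  · exact fin i2 (kk (fun w _ => innc w w (j.val : ZMod 6)) _
      (fun a n k hv hq => k_i0 a n k j hv hq) i2 (b2 trivial))
      (PP_of 3 j i2 (fun _ => ⟨a2.1, a2.2.1⟩) (fun _ => ⟨a2.2.2.1, a2.2.2.2⟩)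
        (fun e => absurd e (by decide)) fun e => absurd e (by decide))
  · exact fin i3 (kk (fun _ w => outc w w (j.val : ZMod 6)) _
      (fun a n k hv hq => k_o1 a n k j hv hq) i3 (b3 trivial))
      (PP_of 4 j i3 (fun e => absurd e (by decide)) (fun e => absurd e (by decide))
        (fun _ => ⟨a3.1, a3.2.1⟩) fun _ => ⟨a3.2.2.1, a3.2.2.2⟩)
  · exact fin i4 (kk (fun _ w => innc w w (j.val : ZMod 6)) _
      (fun a n k hv hq => k_i1 a n k j hv hq) i4 (b4 trivial))
      (PP_of 5 j i4 (fun e => absurd e (by decide)) (fun e => absurd e (by decide))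
        (fun _ => ⟨a4.1, a4.2.1⟩) fun _ => ⟨a4.2.2.1, a4.2.2.2⟩)
  · exact fin i6 (kk (fun w w' => outc w w' (j.val : ZMod 6)) _
      (fun a n k hv hq => (k_o a n k j hv hq).1) i6 (b6 trivial))
      (PP_of 6 j i6 (fun _ => ⟨a6.1, a6.2.1⟩) (fun _ => ⟨a6.2.2.1, a6.2.2.2⟩)
        (fun e => absurd e (by decide)) fun e => absurd e (by decide))
  · exact fin i7 (kk (fun w w' => outc w w' (j.val : ZMod 6)) _
      (fun a n k hv hq => (k_o a n k j hv hq).2.1) i7 (b7 trivial))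
      (PP_of 7 j i7 (fun _ => ⟨a7.1, a7.2.1⟩) (fun e => absurd e (by decide))
        (fun e => absurd e (by decide)) fun _ => ⟨a7.2.2.1, a7.2.2.2⟩)
  · exact fin i8 (kk (fun w w' => outc w w' (j.val : ZMod 6)) _
      (fun a n k hv hq => (k_o a n k j hv hq).2.2) i8 (b8 trivial))
      (PP_of 8 j i8 (fun e => absurd e (by decide)) (fun e => absurd e (by decide))
        (fun _ => ⟨a8.1, a8.2.1⟩) fun _ => ⟨a8.2.2.1, a8.2.2.2⟩)
  · exact fin i9 (kk (fun w w' => innc w w' (j.val : ZMod 6)) _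
      (fun a n k hv hq => (k_i a n k j hv hq).1) i9 (b9 trivial))
      (PP_of 9 j i9 (fun _ => ⟨a9.1, a9.2.1⟩) (fun _ => ⟨a9.2.2.1, a9.2.2.2⟩)
        (fun e => absurd e (by decide)) fun e => absurd e (by decide))
  · exact fin i10 (kk (fun w w' => innc w w' (j.val : ZMod 6)) _
      (fun a n k hv hq => (k_i a n k j hv hq).2.1) i10 (b10 trivial))
      (PP_of 10 j i10 (fun e => absurd e (by decide)) (fun _ => ⟨a10.2.2.1, a10.2.2.2⟩)
        (fun _ => ⟨a10.1, a10.2.1⟩) fun e => absurd e (by decide))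
  · exact fin i11 (kk (fun w w' => innc w w' (j.val : ZMod 6)) _
      (fun a n k hv hq => (k_i a n k j hv hq).2.2) i11 (b11 trivial))
      (PP_of 11 j i11 (fun e => absurd e (by decide)) (fun e => absurd e (by decide))
        (fun _ => ⟨a11.1, a11.2.1⟩) fun _ => ⟨a11.2.2.1, a11.2.2.2⟩)

/-- the place bit of the true option, before -/
theorem Stp.bitG (H : Stp s s' κ) {q : ℕ} (hq : q < 12) :
    (OO s κ (ltr s.1 q)).testBit (84 + q) = true := by
  obtain ⟨j, rfl | rfl⟩ := place hq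
  · rw [ltr_even, OO_val]
    obtain ⟨n, hn⟩ := H.n3 (s.1 j).1
    have hv := H.vl (s.1 j).1
    have hi := (H.ok.2 j).2.1
    rw [hn] at hi hv ⊢
    exact k_inn _ n _ j hv hi
  · rw [ltr_odd, OO_val]
    obtain ⟨n, hn⟩ := H.n3 (s.1 j).2
    have hv := H.vl (s.1 j).2
    have hi := (H.ok.2 j).2.2.1
    rw [hn] at hi hv ⊢
    exact k_out _ n _ j hv hi

/-- the place bit of the true option, after -/
theorem Stp.bitH (H : Stp s s' κ) {q : ℕ} (hq : q < 12) :
    (OO s κ (ltr s'.1 q)).testBit (72 + q) = true := by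
  obtain ⟨j, rfl | rfl⟩ := place hq
  · rw [ltr_even, OO_val]
    obtain ⟨n, hn⟩ := H.n3 (s'.1 j).1
    have hv := H.vl (s'.1 j).1
    have hi := (H.ok'.2 j).2.1
    rw [H.st] at hi
    rw [hn] at hi hv ⊢
    exact k_inn' _ n _ j hv hi
  · rw [ltr_odd, OO_val]
    obtain ⟨n, hn⟩ := H.n3 (s'.1 j).2
    have hv := H.vl (s'.1 j).2
    have hi := (H.ok'.2 j).2.2.1
    rw [H.st] at hi
    rw [hn] at hi hv ⊢
    exact k_out' _ n _ j hv hi

/-- the first colour -/
def c0 : Co := ⟨optL, FU, FU⟩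

def m0 : List Co := [c0, c0, c0, c0, c0, c0]

theorem Stp.inv0 (H : Stp s s' κ) : Inv (OO s κ) (PP s s') m0 := by
  have key : ∀ i : Fin 6, Inv1 (OO s κ i.val) (PP s s' i.val) c0 := fun i =>
    ⟨by rw [OO_val]; exact OP_mem (H.ok.1 i) _, fun b hb => FU_bit.2 hb.1, fun b _ h => h⟩
  exact ⟨key 0, key 1, key 2, key 3, key 4, key 5, trivial⟩

theorem Stp.good (H : Stp s s' κ) :
    Good (ltr s'.1) (OO s κ) (PP s s') rowH [] (pre (ltr s'.1) 12) := by
  have key : ∀ q < 12, bad q (pre (ltr s'.1) q) (ltr s'.1 q) = false ∧ ltr s'.1 q < 6 ∧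
      Nat.land (OO s κ (ltr s'.1 q)) (2 ^ (72 + q)) = 2 ^ (72 + q) ∧
      ∀ b, PP s s' (ltr s'.1 q) b → (R2 q).testBit b = true := fun q hq =>
    ⟨bad_false H.ok' q hq, (lseq s'.1 q).isLt, land_pow (H.bitH hq), fun b hb => hb.2.2 q hq rfl⟩
  have k0 := key 0 (by norm_num)
  have k1 := key 1 (by norm_num)
  have k2 := key 2 (by norm_num)
  have k3 := key 3 (by norm_num)
  have k4 := key 4 (by norm_num)
  have k5 := key 5 (by norm_num)
  have k6 := key 6 (by norm_num)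
  have k7 := key 7 (by norm_num)
  have k8 := key 8 (by norm_num)
  have k9 := key 9 (by norm_num)
  have k10 := key 10 (by norm_num)
  have k11 := key 11 (by norm_num)
  rw [rowH_eq]
  exact ⟨k0.1, k0.2.1, k0.2.2.1, k0.2.2.2, k1.1, k1.2.1, k1.2.2.1, k1.2.2.2, k2.1, k2.2.1,
    k2.2.2.1, k2.2.2.2, k3.1, k3.2.1, k3.2.2.1, k3.2.2.2, k4.1, k4.2.1, k4.2.2.1, k4.2.2.2,
    k5.1, k5.2.1, k5.2.2.1, k5.2.2.2, k6.1, k6.2.1, k6.2.2.1, k6.2.2.2, k7.1, k7.2.1, k7.2.2.1,
    k7.2.2.2, k8.1, k8.2.1, k8.2.2.1, k8.2.2.2, k9.1, k9.2.1, k9.2.2.1, k9.2.2.2, k10.1,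
    k10.2.1, k10.2.2.1, k10.2.2.2, k11.1, k11.2.1, k11.2.2.1, k11.2.2.2, rfl⟩

end

/-! ### the leaf -/

/-- the letters `a b` and `c d` have a colour in common -/
def mtB (a b c d : ℕ) : Bool :=
  orB (Nat.beq a c) (orB (Nat.beq a d) (orB (Nat.beq b c) (Nat.beq b d)))

theorem mtB_of {g g' : Cl} {j k : Fin 6} (h : mt (g j) (g' k)) :
    mtB (g j).1.val (g j).2.val (g' k).1.val (g' k).2.val = true := by
  unfold mtB
  rw [orB_eq, orB_eq, orB_eq]
  rcases h with h | h | h | h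
  · left; rw [h]; exact Nat.beq_refl _
  · right; left; rw [h]; exact Nat.beq_refl _
  · right; right; left; rw [h]; exact Nat.beq_refl _
  · right; right; right; rw [h]; exact Nat.beq_refl _

theorem mt_of {g g' : Cl} {j k : Fin 6}
    (h : mtB (g j).1.val (g j).2.val (g' k).1.val (g' k).2.val = true) : mt (g j) (g' k) := by
  unfold mtB at h
  rw [orB_eq, orB_eq, orB_eq] at h
  rcases h with h | h | h | h
  · exact Or.inl (Fin.ext (Nat.eq_of_beq_eq_true h))
  · exact Or.inr (Or.inl (Fin.ext (Nat.eq_of_beq_eq_true h)))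
  · exact Or.inr (Or.inr (Or.inl (Fin.ext (Nat.eq_of_beq_eq_true h))))
  · exact Or.inr (Or.inr (Or.inr (Fin.ext (Nat.eq_of_beq_eq_true h))))

/-- the member `i` of a list -/
def nth (l : List ℕ) (i : ℕ) : ℕ :=
  Nat.rec (motive := fun _ => List ℕ → ℕ) (fun l => List.rec (motive := fun _ => ℕ) 9
    (fun a _ _ => a) l) (fun _ ih l => List.rec (motive := fun _ => ℕ) 9 (fun _ t _ => ih t) l) i l

/-- the test of the slots `j`, `k`: forward and backward -/
def fw (c : ℕ) (rev : List ℕ) (j k : ℕ) : Bool :=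
  mtB (H623.dg c (2 * j)) (H623.dg c (2 * j + 1)) (nth rev (11 - 2 * k)) (nth rev (10 - 2 * k))

def bw (c : ℕ) (rev : List ℕ) (j k : ℕ) : Bool :=
  mtB (nth rev (11 - 2 * j)) (nth rev (10 - 2 * j)) (H623.dg c (2 * k)) (H623.dg c (2 * k + 1))

/-- `a` and then `b` -/
abbrev andB (a b : Bool) : Bool := Bool.rec (motive := fun _ => Bool) false b a

theorem andB_eq {a b : Bool} : andB a b = true ↔ a = true ∧ b = true := by
  cases a <;> simp [andB]

/-- no swap and no conveyor -/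
def nsB (c : ℕ) (rev : List ℕ) : Bool :=
  orB (andB (fw c rev 0 1) (bw c rev 0 1)) (orB (andB (fw c rev 1 2) (bw c rev 1 2))
    (orB (andB (fw c rev 2 3) (bw c rev 2 3)) (orB (andB (fw c rev 3 4) (bw c rev 3 4))
      (orB (andB (fw c rev 4 5) (bw c rev 4 5)) (orB (andB (fw c rev 5 0) (bw c rev 5 0))
        (orB (andB (fw c rev 0 1) (andB (fw c rev 1 2) (andB (fw c rev 2 3) (andB (fw c rev 3 4)
          (andB (fw c rev 4 5) (fw c rev 5 0))))))
        (andB (bw c rev 0 1) (andB (bw c rev 1 2) (andB (bw c rev 2 3) (andB (bw c rev 3 4)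
          (andB (bw c rev 4 5) (bw c rev 5 0))))))))))))

theorem nth_pre (f : ℕ → ℕ) {k : ℕ} (hk : k < 12) : nth (pre f 12) (11 - k) = f k := by
  interval_cases k <;> rfl

theorem nsB_of {g g' : Cl} {c : ℕ} (hc : IsCol g c) (h : nsB c (pre (ltr g') 12) = false) :
    NsC g g' := by
  have hg := fun j => hc.slot j
  have hf : ∀ j k : Fin 6, fw c (pre (ltr g') 12) j.val k.val =
      mtB (g j).1.val (g j).2.val (g' k).1.val (g' k).2.val := by
    intro j k
    have hk := k.isLt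
    unfold fw
    rw [← (hg j).1, ← (hg j).2, nth_pre _ (show 2 * k.val < 12 by omega),
      show 10 - 2 * k.val = 11 - (2 * k.val + 1) by omega,
      nth_pre _ (show 2 * k.val + 1 < 12 by omega), ltr_even, ltr_odd]
  have hb : ∀ j k : Fin 6, bw c (pre (ltr g') 12) j.val k.val =
      mtB (g' j).1.val (g' j).2.val (g k).1.val (g k).2.val := by
    intro j k
    have hj := j.isLt
    unfold bw
    rw [← (hg k).1, ← (hg k).2, nth_pre _ (show 2 * j.val < 12 by omega),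
      show 10 - 2 * j.val = 11 - (2 * j.val + 1) by omega,
      nth_pre _ (show 2 * j.val + 1 < 12 by omega), ltr_even, ltr_odd]
  have h' : ¬ (nsB c (pre (ltr g') 12) = true) := by rw [h]; decide
  unfold nsB at h'
  simp only [orB_eq, andB_eq] at h'
  have f0 := hf 0 1
  have f1 := hf 1 2
  have f2 := hf 2 3
  have f3 := hf 3 4
  have f4 := hf 4 5
  have f5 := hf 5 0
  have b0 := hb 0 1
  have b1 := hb 1 2
  have b2 := hb 2 3
  have b3 := hb 3 4
  have b4 := hb 4 5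
  have b5 := hb 5 0
  simp only [Fin.isValue, Fin.val_zero, Fin.val_one, Fin.val_two,
    show ((3 : Fin 6) : ℕ) = 3 from rfl, show ((4 : Fin 6) : ℕ) = 4 from rfl,
    show ((5 : Fin 6) : ℕ) = 5 from rfl] at f0 f1 f2 f3 f4 f5 b0 b1 b2 b3 b4 b5
  push Not at h'
  obtain ⟨s0, s1, s2, s3, s4, s5, t0, t1⟩ := h'
  refine ⟨fun j hj => ?_, fun hj => ?_, fun hj => ?_⟩
  · obtain ⟨ha, hb'⟩ := hj
    have e1 := mtB_of ha
    have e2 := mtB_of hb'
    fin_cases j
    · exact s0 (f0.trans e1) (b0.trans e2)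
    · exact s1 (f1.trans e1) (b1.trans e2)
    · exact s2 (f2.trans e1) (b2.trans e2)
    · exact s3 (f3.trans e1) (b3.trans e2)
    · exact s4 (f4.trans e1) (b4.trans e2)
    · exact s5 (f5.trans e1) (b5.trans e2)
  · exact t0 (f0.trans (mtB_of (hj 0))) (f1.trans (mtB_of (hj 1))) (f2.trans (mtB_of (hj 2)))
      (f3.trans (mtB_of (hj 3))) (f4.trans (mtB_of (hj 4))) (f5.trans (mtB_of (hj 5)))
  · exact t1 (b0.trans (mtB_of (hj 0))) (b1.trans (mtB_of (hj 1))) (b2.trans (mtB_of (hj 2)))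
      (b3.trans (mtB_of (hj 3))) (b4.trans (mtB_of (hj 4))) (b5.trans (mtB_of (hj 5)))

/-- membership in one of the lists -/
def memC (w : ℕ) (L : List (List ℕ)) : Bool :=
  List.rec (motive := fun _ => Bool) false (fun l _ ih => orB (memB w l) ih) L

theorem memC_spec {w : ℕ} {L : List (List ℕ)} (h : memC w L = true) : ∃ l ∈ L, w ∈ l := by
  induction L with
  | nil => cases h
  | cons a L ih =>
    have h1 : orB (memB w a) (memC w L) = true := h
    rw [orB_eq] at h1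
    rcases h1 with h1 | h1
    · exact ⟨a, List.mem_cons_self, memB_spec h1⟩
    · obtain ⟨l, hl, hw⟩ := ih h1
      exact ⟨l, List.mem_cons_of_mem _ hl, hw⟩

/-- a leaf: in the table, or no swap and no conveyor, or dead -/
def leafB (c : ℕ) (L : List (List ℕ)) (rev : List ℕ) (m : List Co) : Bool :=
  orB (force (cd rev) fun w => memC w L)
    (Bool.rec (motive := fun _ => Bool) true (spl [0, 1, 2, 3, 4, 5] m) (nsB c rev))

/-- the rows of the column `c` -/
def gin (c : ℕ) : List (ℕ × ℕ × ℕ) := rowG.map fun r => (H623.dg c r.1, r.2.1, r.2.2)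

/-- **the search from the column `c`** -/
def chkC (c : ℕ) (L : List (List ℕ)) : Bool :=
  iniK (gin c) m0 fun m => srch (leafB c L) rowH [] m

theorem chkC_sound {c : ℕ} {L : List (List ℕ)} (h : chkC c L = true) {E : St → St → Prop}
    {s s' : St} (hs : StepC All E s s') (hc : IsCol s.1 c) (hn : ¬ NsC s.1 s'.1) :
    ∃ l ∈ L, ∃ q ∈ l, IsCol s'.1 q := by
  obtain ⟨κ, hκ⟩ := exists_kap hs.win hs.ok'.ok.1
  have H : Stp s s' κ := ⟨hs.ok.ok, hs.ok'.ok, hs.ok.cov, hs.ok'.cov, hs.ok.xc, hs.ok'.xc, hs.xc,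
    fun i => (hκ i).1, fun i => (hκ i).2⟩
  obtain ⟨m1, e1, e2, e3⟩ := iniK_spec (O := OO s κ) (P := PP s s') (fun r hr => by
    unfold gin at hr
    rw [rowG_eq] at hr
    obtain ⟨r0, hr0, rfl⟩ := List.mem_map.1 hr
    obtain ⟨q, hq, rfl⟩ : ∃ q < 12, r0 = mkG q := by
      simp only [List.mem_cons, List.not_mem_nil, or_false] at hr0
      rcases hr0 with h | h | h | h | h | h | h | h | h | h | h | h
      exacts [⟨0, by norm_num, h⟩, ⟨1, by norm_num, h⟩, ⟨2, by norm_num, h⟩, ⟨3, by norm_num, h⟩,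
        ⟨4, by norm_num, h⟩, ⟨5, by norm_num, h⟩, ⟨6, by norm_num, h⟩, ⟨7, by norm_num, h⟩,
        ⟨8, by norm_num, h⟩, ⟨9, by norm_num, h⟩, ⟨10, by norm_num, h⟩, ⟨11, by norm_num, h⟩]
    have e : H623.dg c q = ltr s.1 q := (hc q hq).symm
    refine ⟨?_, fun b hb => ?_⟩
    · show Nat.land (OO s κ (H623.dg c q)) (2 ^ (84 + q)) = 2 ^ (84 + q)
      rw [e]
      exact land_pow (H.bitG hq)
    · have hb' : PP s s' (H623.dg c q) b := hb
      rw [e] at hb'
      exact hb'.2.1 q hq rfl) H.inv0 rfl h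
  obtain ⟨m2, f1, f2, f3⟩ := srch_spec H.srv H.good e2 e3 e1
  unfold leafB at f1
  rw [orB_eq, force_eq] at f1
  rcases f1 with f1 | f1
  · obtain ⟨l, hl, hw⟩ := memC_spec f1
    exact ⟨l, hl, _, hw, fun p hp => (dg_cd (fun q => lt_trans (lseq s'.1 q).isLt (by norm_num)) p
      hp).symm⟩
  · exfalso
    cases hb : nsB c (pre (ltr s'.1) 12) with
    | false => exact hn (nsB_of hc hb)
    | true =>
      rw [hb] at f1
      exact spl_spec H.srv (by decide) f2 f3 f1

end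

end Vale.Agent.P032.H800.Br
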