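import Vale.Agent.P032.H800.Br.Sound
import Vale.Agent.P032.H437.Wt.Rows

/-!
# P032: the steps from the columns, table 0
-/

namespace Vale.Agent.P032.H800.Br

open Vale.Agent.P032.H437.Wt

theorem k56 : chkC 12345103254 [q56_0, q56_1, q56_2, q56_3, q56_4, q56_5, q56_6, q56_7, q56_8,
    q56_9, q56_10, q56_11, q56_12, q56_13, q56_14, q56_15, q56_16, q56_17, q56_18, q56_19,
    q56_20, q56_21, q56_22, q56_23, q56_24, q56_25] = true := by
  decide +kernel

end Vale.Agent.P032.H800.Br
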