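import Vale.Agent.P032.H800.Br.Sound
import Vale.Agent.P032.H437.Wt.Rows

/-!
# P032: the steps from the columns, table 10
-/

namespace Vale.Agent.P032.H800.Br

open Vale.Agent.P032.H437.Wt

theorem k1 : chkC 12301241032 [q1_0] = true := by
  decide +kernel

theorem k15 : chkC 12301423024 [q15_0] = true := by
  decide +kernel

theorem k22 : chkC 12301453054 [q22_0] = true := by
  decide +kernel

theorem k24 : chkC 12304123042 [q24_0, q24_1] = true := by
  decide +kernel

theorem k31 : chkC 12304153245 [q31_0] = true := by
  decide +kernel

theorem k36 : chkC 12304321042 [q36_0] = true := by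
  decide +kernel

theorem k38 : chkC 12304321045 [q38_0, q38_1, q38_2] = true := by
  decide +kernel

end Vale.Agent.P032.H800.Br
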