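import Vale.Agent.P032.H800.Br.Sound
import Vale.Agent.P032.H437.Wt.Rows

/-!
# P032: the steps from the columns, table 11
-/

namespace Vale.Agent.P032.H800.Br

open Vale.Agent.P032.H437.Wt

theorem k8 : chkC 12301321043 [q8_0] = true := by
  decide +kernel

theorem k16 : chkC 12301431032 [q16_0] = true := by
  decide +kernel

theorem k17 : chkC 12301431034 [q17_0] = true := by
  decide +kernel

theorem k35 : chkC 12304321035 [q35_0, q35_1] = true := by
  decide +kernel

theorem k37 : chkC 12304321043 [q37_0, q37_1, q37_2] = true := by
  decide +kernel

theorem k42 : chkC 12304531035 [q42_0] = true := by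
  decide +kernel

theorem k47 : chkC 12310345243 [q47_0, q47_1] = true := by
  decide +kernel

end Vale.Agent.P032.H800.Br
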