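import Vale.Agent.P032.H800.Br.Sound
import Vale.Agent.P032.H437.Wt.Rows

/-!
# P032: the steps from the columns, table 3
-/

namespace Vale.Agent.P032.H800.Br

open Vale.Agent.P032.H437.Wt

theorem k0 : chkC 12301231032 [q0_0] = true := by
  decide +kernel

end Vale.Agent.P032.H800.Br
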