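import Vale.Agent.P032.H800.Br.Sound
import Vale.Agent.P032.H437.Wt.Rows

/-!
# P032: the steps from the columns, table 4
-/

namespace Vale.Agent.P032.H800.Br

open Vale.Agent.P032.H437.Wt

theorem k13 : chkC 12301421024 [q13_0] = true := by
  decide +kernel

theorem k18 : chkC 12301431234 [q18_0] = true := by
  decide +kernel

theorem k50 : chkC 12310453254 [q50_0, q50_1, q50_2, q50_3, q50_4] = true := by
  decide +kernel

theorem k52 : chkC 12314354052 [q52_0] = true := by
  decide +kernel

end Vale.Agent.P032.H800.Br
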