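import Vale.Agent.P032.H800.Br.Sound
import Vale.Agent.P032.H437.Wt.Rows

/-!
# P032: the steps from the columns, table 5
-/

namespace Vale.Agent.P032.H800.Br

open Vale.Agent.P032.H437.Wt

theorem k11 : chkC 12301341043 [q11_0] = true := by
  decide +kernel

theorem k19 : chkC 12301451032 [q19_0] = true := by
  decide +kernel

theorem k26 : chkC 12304123542 [q26_0] = true := by
  decide +kernel

theorem k39 : chkC 12304354032 [q39_0] = true := by
  decide +kernel

theorem k40 : chkC 12304354053 [q40_0] = true := by
  decide +kernel

theorem k53 : chkC 12314503145 [q53_0, q53_1, q53_2, q53_3, q53_4] = true := by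
  decide +kernel

end Vale.Agent.P032.H800.Br
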