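import Vale.Agent.P032.H800.Br.Sound
import Vale.Agent.P032.H437.Wt.Rows

/-!
# P032: the steps from the columns, table 6
-/

namespace Vale.Agent.P032.H800.Br

open Vale.Agent.P032.H437.Wt

theorem k3 : chkC 12301243042 [q3_0] = true := by
  decide +kernel

theorem k4 : chkC 12301321024 [q4_0] = true := by
  decide +kernel

theorem k25 : chkC 12304123045 [q25_0, q25_1, q25_2, q25_3] = true := by
  decide +kernel

theorem k28 : chkC 12304134032 [q28_0] = true := by
  decide +kernel

theorem k41 : chkC 12304354253 [q41_0] = true := by
  decide +kernel

theorem k45 : chkC 12304531245 [q45_0, q45_1] = true := by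
  decide +kernel

theorem k46 : chkC 12310345043 [q46_0] = true := by
  decide +kernel

end Vale.Agent.P032.H800.Br
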