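import Vale.Agent.P032.H800.Br.Sound
import Vale.Agent.P032.H437.Wt.Rows

/-!
# P032: the steps from the columns, table 7
-/

namespace Vale.Agent.P032.H800.Br

open Vale.Agent.P032.H437.Wt

theorem k6 : chkC 12301321034 [q6_0] = true := by
  decide +kernel

theorem k10 : chkC 12301341032 [q10_0] = true := by
  decide +kernel

theorem k21 : chkC 12301451254 [q21_0, q21_1] = true := by
  decide +kernel

theorem k27 : chkC 12304124032 [q27_0] = true := by
  decide +kernel

theorem k34 : chkC 12304154253 [q34_0] = true := by
  decide +kernel

theorem k48 : chkC 12310435134 [q48_0, q48_1] = true := by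
  decide +kernel

theorem k51 : chkC 12314305243 [q51_0, q51_1, q51_2] = true := by
  decide +kernel

end Vale.Agent.P032.H800.Br
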