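import Vale.Agent.P032.H800.Br.Sound
import Vale.Agent.P032.H437.Wt.Rows

/-!
# P032: the steps from the columns, table 8
-/

namespace Vale.Agent.P032.H800.Br

open Vale.Agent.P032.H437.Wt

theorem k2 : chkC 12301241042 [q2_0] = true := by
  decide +kernel

theorem k9 : chkC 12301321045 [q9_0] = true := by
  decide +kernel

theorem k12 : chkC 12301341243 [q12_0] = true := by
  decide +kernel

theorem k14 : chkC 12301421032 [q14_0] = true := by
  decide +kernel

theorem k30 : chkC 12304153045 [q30_0] = true := by
  decide +kernel

theorem k32 : chkC 12304154032 [q32_0, q32_1] = true := by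
  decide +kernel

theorem k43 : chkC 12304531045 [q43_0] = true := by
  decide +kernel

theorem k49 : chkC 12310435234 [q49_0, q49_1, q49_2, q49_3] = true := by
  decide +kernel

end Vale.Agent.P032.H800.Br
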