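import Vale.Agent.P032.H800.Br.Sound
import Vale.Agent.P032.H437.Wt.Rows

/-!
# P032: the steps from the columns, table 9
-/

namespace Vale.Agent.P032.H800.Br

open Vale.Agent.P032.H437.Wt

theorem k7 : chkC 12301321042 [q7_0] = true := by
  decide +kernel

theorem k20 : chkC 12301451054 [q20_0] = true := by
  decide +kernel

theorem k23 : chkC 12301453254 [q23_0, q23_1] = true := by
  decide +kernel

theorem k29 : chkC 12304153042 [q29_0, q29_1, q29_2] = true := by
  decide +kernel

theorem k33 : chkC 12304154053 [q33_0] = true := by
  decide +kernel

theorem k44 : chkC 12304531235 [q44_0] = true := by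
  decide +kernel

theorem k55 : chkC 12340521435 [q55_0, q55_1, q55_2] = true := by
  decide +kernel

end Vale.Agent.P032.H800.Br
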